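import Mathlib

/-!
# P048: basic toolkit for cycles given by vertex functions
-/

namespace Vale.Agent.P048

open SimpleGraph Finset

variable {V : Type*} {G : SimpleGraph V}

/-- `f 0, ..., f (k-1)` is a path with `k` distinct vertices. -/
def PathFn (G : SimpleGraph V) (k : ℕ) (f : ℕ → V) : Prop :=
  (∀ i j, i < k → j < k → f i = f j → i = j) ∧ (∀ i, i + 1 < k → G.Adj (f i) (f (i + 1)))

/-- `f 0, ..., f (k-1)` is a cycle with `k ≥ 3` distinct vertices. -/
def CycFn (G : SimpleGraph V) (k : ℕ) (f : ℕ → V) : Prop :=
  3 ≤ k ∧ PathFn G k f ∧ G.Adj (f (k - 1)) (f 0)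

/-- The graph has a cycle of length exactly `k` (Mathlib walks). -/
def HasCycle (G : SimpleGraph V) (k : ℕ) : Prop :=
  ∃ (v : V) (p : G.Walk v v), p.IsCycle ∧ p.length = k

theorem CycFn.hasCycle {k : ℕ} {f : ℕ → V} (h : CycFn G k f) : HasCycle G k := by
  obtain ⟨hk, ⟨hinj, hadj⟩, hclose⟩ := h
  set l : List V := (List.range k).map f with hl
  have hlen : l.length = k := by simp [hl]
  have hne : l ≠ [] := by
    intro h0
    have : l.length = 0 := by simp [h0]
    omega
  have hchain : l.IsChain G.Adj := by
    rw [List.isChain_iff_getElem]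
    intro i hi
    have hi' : i + 1 < k := by simpa [hlen] using hi
    simp only [hl, List.getElem_map, List.getElem_range]
    exact hadj i hi'
  have hnodup : l.Nodup := by
    rw [List.nodup_iff_injective_getElem]
    intro ⟨i, hi⟩ ⟨j, hj⟩ hij
    have hi' : i < k := by simpa [hlen] using hi
    have hj' : j < k := by simpa [hlen] using hj
    simp only [hl, List.getElem_map, List.getElem_range] at hij
    exact Fin.ext (hinj i j hi' hj' hij)
  have hhead : l.head hne = f 0 := by
    rw [List.head_eq_getElem]
    simp [hl]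
  have hlast : l.getLast hne = f (k - 1) := by
    rw [List.getLast_eq_getElem]
    simp [hl]
  let p := Walk.ofSupport l hne hchain
  have hp : p.IsPath := Walk.IsPath.mk' (by simpa [p] using hnodup)
  have hadj' : G.Adj (l.getLast hne) (l.head hne) := by
    rw [hhead, hlast]; exact hclose
  refine ⟨l.getLast hne, Walk.cons hadj' p, ?_, ?_⟩
  · rw [Walk.isCycle_iff_isPath_tail_and_le_length]
    refine ⟨?_, ?_⟩
    · simpa using hp
    · simp only [Walk.length_cons, p, Walk.length_ofSupport, hlen]
      omega
  · simp only [Walk.length_cons, p, Walk.length_ofSupport, hlen]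
    omega

end Vale.Agent.P048
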