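import Vale.Agent.P048.Basic

/-!
# P048: long cycles and shortening of cycles in graphs with small independence number
-/

namespace Vale.Agent.P048

open SimpleGraph Finset

variable {V : Type*} [DecidableEq V] {G : SimpleGraph V}

/-- A cycle of length `k` all of whose vertices lie in `S`. -/
def CycIn (G : SimpleGraph V) (S : Finset V) (k : ℕ) : Prop :=
  ∃ f : ℕ → V, CycFn G k f ∧ ∀ i, i < k → f i ∈ S

theorem CycIn.mono {S S' : Finset V} {k : ℕ} (h : CycIn G S k) (hS : S ⊆ S') : CycIn G S' k := by
  obtain ⟨f, hf, hm⟩ := h
  exact ⟨f, hf, fun i hi => hS (hm i hi)⟩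

theorem CycIn.hasCycle {S : Finset V} {k : ℕ} (h : CycIn G S k) : HasCycle G k := by
  obtain ⟨f, hf, -⟩ := h
  exact hf.hasCycle

/-- A path with `k` vertices inside `S` has `k ≤ |S|`. -/
theorem PathFn.le_card {S : Finset V} {k : ℕ} {f : ℕ → V} (h : PathFn G k f)
    (hm : ∀ i, i < k → f i ∈ S) : k ≤ S.card := by
  have : (Finset.range k).card ≤ S.card := by
    apply Finset.card_le_card_of_injOn f
    · intro i hi
      exact hm i (by simpa using hi)
    · intro i hi j hj hij
      exact h.1 i j (by simpa using hi) (by simpa using hj) hij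
  simpa using this

/-- If every vertex of the nonempty set `S` has at least `d ≥ 2` neighbours in `S`, then `S`
contains a cycle of length at least `d + 1`. -/
theorem exists_long_cycle [DecidableRel G.Adj] [Fintype V] {S : Finset V} (hS : S.Nonempty) {d : ℕ}
    (hd : 2 ≤ d) (hdeg : ∀ v ∈ S, d ≤ (S.filter (fun u => G.Adj v u)).card) :
    ∃ k, d + 1 ≤ k ∧ CycIn G S k := by
  classical
  -- longest path in S
  let P : ℕ → Prop := fun k => ∃ f : ℕ → V, PathFn G k f ∧ ∀ i, i < k → f i ∈ S
  obtain ⟨v0, hv0⟩ := hS
  have hP1 : P 1 := by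
    refine ⟨fun _ => v0, ⟨?_, ?_⟩, fun _ _ => hv0⟩
    · intro i j hi hj _; omega
    · intro i hi; omega
  have hcard1 : 1 ≤ S.card := Finset.card_pos.mpr ⟨v0, hv0⟩
  set K := Nat.findGreatest P S.card with hK
  have hPK : P K := Nat.findGreatest_spec hcard1 hP1
  have hmax : ∀ k, P k → k ≤ K := by
    intro k hk
    obtain ⟨f, hf, hm⟩ := hk
    exact Nat.le_findGreatest (hf.le_card hm) ⟨f, hf, hm⟩
  have hK1 : 1 ≤ K := hmax 1 hP1
  obtain ⟨f, hf, hm⟩ := hPK
  -- all neighbours of f 0 in S lie on the path
  have hon : ∀ u ∈ S, G.Adj (f 0) u → ∃ i, i < K ∧ f i = u := by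
    intro u hu hadj
    by_contra hcon
    push Not at hcon
    have : P (K + 1) := by
      refine ⟨fun i => if i = 0 then u else f (i - 1), ⟨?_, ?_⟩, ?_⟩
      · intro i j hi hj hij
        by_cases hi0 : i = 0 <;> by_cases hj0 : j = 0
        · omega
        · simp only [hi0, hj0, if_true, if_false] at hij
          exact absurd hij.symm (hcon (j - 1) (by omega))
        · simp only [hi0, hj0, if_true, if_false] at hij
          exact absurd hij (hcon (i - 1) (by omega))
        · simp only [hi0, hj0, if_false] at hij
          have := hf.1 (i - 1) (j - 1) (by omega) (by omega) hij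
          omega
      · intro i hi
        by_cases hi0 : i = 0
        · subst hi0
          simpa using hadj.symm
        · have h1 : i + 1 ≠ 0 := by omega
          simp only [hi0, h1, if_false]
          have := hf.2 (i - 1) (by omega)
          have e : i - 1 + 1 = i + 1 - 1 := by omega
          rwa [e] at this
      · intro i hi
        by_cases hi0 : i = 0
        · simp [hi0, hu]
        · simp only [hi0, if_false]
          exact hm (i - 1) (by omega)
    have := hmax _ this
    omega
  -- index set of neighbours
  let J : Finset ℕ := (Finset.range K).filter (fun i => G.Adj (f 0) (f i))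
  have hJcard : d ≤ J.card := by
    refine le_trans (hdeg (f 0) (hm 0 (by omega))) ?_
    have : (S.filter (fun u => G.Adj (f 0) u)) ⊆ J.image f := by
      intro u hu
      rw [Finset.mem_filter] at hu
      obtain ⟨i, hi, rfl⟩ := hon u hu.1 hu.2
      exact Finset.mem_image.mpr ⟨i, by simp [J, hi, hu.2], rfl⟩
    exact le_trans (Finset.card_le_card this) Finset.card_image_le
  have hJne : J.Nonempty := by
    rw [← Finset.card_pos]; omega
  set j := J.max' hJne with hj
  have hjJ : j ∈ J := Finset.max'_mem J hJne
  have hjK : j < K := by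
    have := (Finset.mem_filter.mp hjJ).1
    simpa using this
  have hjadj : G.Adj (f 0) (f j) := (Finset.mem_filter.mp hjJ).2
  have hJsub : J ⊆ Finset.Icc 1 j := by
    intro i hi
    have hle : i ≤ j := Finset.le_max' J i hi
    have hadj : G.Adj (f 0) (f i) := (Finset.mem_filter.mp hi).2
    have : i ≠ 0 := by
      rintro rfl
      exact G.loopless.irrefl _ hadj
    simp only [Finset.mem_Icc]
    omega
  have hdj : d ≤ j := by
    have := Finset.card_le_card hJsub
    simp only [Nat.card_Icc] at this
    omega
  refine ⟨j + 1, by omega, f, ⟨by omega, ⟨?_, ?_⟩, ?_⟩, ?_⟩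
  · intro a b ha hb hab
    exact hf.1 a b (by omega) (by omega) hab
  · intro i hi
    exact hf.2 i (by omega)
  · simpa using hjadj.symm
  · intro i hi
    exact hm i (by omega)

/-- Shortening: a cycle of length `k ≥ 2n` inside a set with no independent `n`-subset can be
shortened by at least `1` and at most `2n - 3` vertices. -/
theorem CycIn.shorten {S : Finset V} {k n : ℕ} (h : CycIn G S k) (hn : 2 ≤ n) (hk : 2 * n ≤ k)
    (hind : ∀ I : Finset V, I ⊆ S → G.IsIndepSet (I : Set V) → I.card < n) :
    ∃ k', k' < k ∧ k ≤ k' + (2 * n - 3) ∧ CycIn G S k' := by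
  classical
  obtain ⟨f, ⟨hk3, ⟨hinj, hadj⟩, hclose⟩, hm⟩ := h
  -- the n alternate vertices
  let I : Finset V := (Finset.range n).image (fun i => f (2 * i))
  have hIcard : I.card = n := by
    rw [Finset.card_image_of_injOn, Finset.card_range]
    intro a ha b hb hab
    have ha' : a < n := by simpa using ha
    have hb' : b < n := by simpa using hb
    have := hinj (2 * a) (2 * b) (by omega) (by omega) hab
    omega
  have hIS : I ⊆ S := by
    intro v hv
    obtain ⟨i, hi, rfl⟩ := Finset.mem_image.mp hv
    have hi' : i < n := by simpa using hi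
    exact hm _ (by omega)
  have hnot : ¬ G.IsIndepSet (I : Set V) := by
    intro hI
    have := hind I hIS hI
    omega
  -- find an adjacent pair
  have : ∃ a b, a < b ∧ b < n ∧ G.Adj (f (2 * a)) (f (2 * b)) := by
    by_contra hcon
    push Not at hcon
    apply hnot
    intro x hx y hy hxy hadjxy
    obtain ⟨a, ha, rfl⟩ := Finset.mem_image.mp (Finset.mem_coe.mp hx)
    obtain ⟨b, hb, rfl⟩ := Finset.mem_image.mp (Finset.mem_coe.mp hy)
    have ha' : a < n := by simpa using ha
    have hb' : b < n := by simpa using hb
    rcases lt_trichotomy a b with hab | hab | hab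
    · exact hcon a b hab hb' hadjxy
    · subst hab; exact hxy rfl
    · exact hcon b a hab ha' hadjxy.symm
  obtain ⟨a, b, hab, hbn, hchord⟩ := this
  set s := 2 * b - 2 * a - 1 with hs
  refine ⟨k - s, by omega, by omega, fun t => if t ≤ 2 * a then f t else f (t + s), ⟨by omega, ⟨?_, ?_⟩, ?_⟩, ?_⟩
  · intro i j hi hj hij
    by_cases h1 : i ≤ 2 * a <;> by_cases h2 : j ≤ 2 * a
    · simp only [h1, h2, if_true] at hij
      exact hinj i j (by omega) (by omega) hij
    · simp only [h1, h2, if_true, if_false] at hij
      have := hinj i (j + s) (by omega) (by omega) hij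
      omega
    · simp only [h1, h2, if_true, if_false] at hij
      have := hinj (i + s) j (by omega) (by omega) hij
      omega
    · simp only [h1, h2, if_false] at hij
      have := hinj (i + s) (j + s) (by omega) (by omega) hij
      omega
  · intro i hi
    by_cases h1 : i + 1 ≤ 2 * a
    · have h0 : i ≤ 2 * a := by omega
      simp only [h0, h1, if_true]
      exact hadj i (by omega)
    · by_cases h0 : i ≤ 2 * a
      · have hi2 : i = 2 * a := by omega
        simp only [h0, h1, if_true, if_false]
        have e : i + 1 + s = 2 * b := by omega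
        rw [e, hi2]
        exact hchord
      · simp only [h0, h1, if_false]
        have := hadj (i + s) (by omega)
        have e : i + s + 1 = i + 1 + s := by omega
        rwa [e] at this
  · have h1 : ¬ (k - s - 1 ≤ 2 * a) := by omega
    have h0 : (0 : ℕ) ≤ 2 * a := by omega
    simp only [h1, h0, if_true, if_false]
    have e : k - s - 1 + s = k - 1 := by omega
    rw [e]
    exact hclose
  · intro i hi
    by_cases h1 : i ≤ 2 * a
    · simp only [h1, if_true]
      exact hm i (by omega)
    · simp only [h1, if_false]
      exact hm (i + s) (by omega)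

end Vale.Agent.P048
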