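import Vale.Agent.P048.Window

/-!
# P048: the window theorem
-/

namespace Vale.Agent.P048

open SimpleGraph Finset

variable {V : Type*} [DecidableEq V] [Fintype V] {G : SimpleGraph V} [DecidableRel G.Adj]

/-- Every set `S` of at least `(m-1) a + 1` vertices with no independent subset of more than `a`
vertices contains a cycle of length at least `m`. -/
theorem exists_cycle_ge (m : ℕ) (hm : 3 ≤ m) (a : ℕ) :
    ∀ S : Finset V, (m - 1) * a + 1 ≤ S.card →
      (∀ I : Finset V, I ⊆ S → G.IsIndepSet (I : Set V) → I.card ≤ a) →
      ∃ k, m ≤ k ∧ CycIn G S k := by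
  induction a with
  | zero =>
    intro S hS hind
    have hne : S.Nonempty := by
      rw [← Finset.card_pos]; omega
    obtain ⟨v, hv⟩ := hne
    have := hind {v} (by simpa using hv) (by simp)
    simp at this
  | succ a ih =>
    intro S hS hind
    by_cases hdeg : ∀ v ∈ S, m - 1 ≤ (S.filter (fun u => G.Adj v u)).card
    · have hne : S.Nonempty := by
        rw [← Finset.card_pos]; omega
      obtain ⟨k, hk, hc⟩ := exists_long_cycle (G := G) hne (d := m - 1) (by omega) hdeg
      exact ⟨k, by omega, hc⟩
    · push Not at hdeg
      obtain ⟨v, hv, hlt⟩ := hdeg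
      set S' := (S.filter (fun u => ¬ G.Adj v u)).erase v with hS'
      have hsub : S' ⊆ S := fun u hu => (Finset.mem_filter.mp (Finset.mem_of_mem_erase hu)).1
      have hcard : (m - 1) * a + 1 ≤ S'.card := by
        have h1 : (S.filter (fun u => G.Adj v u)).card + (S.filter (fun u => ¬ G.Adj v u)).card
            = S.card := Finset.card_filter_add_card_filter_not (s := S) (fun u => G.Adj v u)
        have hvmem : v ∈ S.filter (fun u => ¬ G.Adj v u) := by
          simp [hv]
        have h2 : S'.card = (S.filter (fun u => ¬ G.Adj v u)).card - 1 :=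
          Finset.card_erase_of_mem hvmem
        have h3 : (m - 1) * (a + 1) = (m - 1) * a + (m - 1) := by ring
        omega
      obtain ⟨k, hk, hc⟩ := ih S' hcard (by
        intro I hI hIind
        have hvI : v ∉ I := fun h => by
          have := hI h
          simp [hS'] at this
        have hins : G.IsIndepSet ((insert v I : Finset V) : Set V) := by
          rw [Finset.coe_insert]
          intro x hx y hy hxy
          rcases hx with rfl | hx <;> rcases hy with rfl | hy
          · exact absurd rfl hxy
          · have := hI (Finset.mem_coe.mp hy)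
            simp only [hS', Finset.mem_erase, Finset.mem_filter] at this
            exact this.2.2
          · have := hI (Finset.mem_coe.mp hx)
            simp only [hS', Finset.mem_erase, Finset.mem_filter] at this
            exact fun h => this.2.2 h.symm
          · exact hIind hx hy hxy
        have := hind (insert v I) (by
          intro u hu
          rcases Finset.mem_insert.mp hu with rfl | hu
          · exact hv
          · exact hsub (hI hu)) hins
        rw [Finset.card_insert_of_notMem hvI] at this
        omega)
      exact ⟨k, hk, hc.mono hsub⟩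

/-- Window theorem, relative form. -/
theorem exists_cycle_window (m n : ℕ) (hm : 3 ≤ m) (hn : 2 ≤ n) (S : Finset V)
    (hS : (m - 1) * (n - 1) + 1 ≤ S.card)
    (hind : ∀ I : Finset V, I ⊆ S → G.IsIndepSet (I : Set V) → I.card < n) :
    ∃ k, m ≤ k ∧ k ≤ m + 2 * n - 4 ∧ CycIn G S k := by
  classical
  have hex : ∃ k, m ≤ k ∧ CycIn G S k :=
    exists_cycle_ge m hm (n - 1) S hS (fun I hI hi => by have := hind I hI hi; omega)
  set k := Nat.find hex with hk
  obtain ⟨hmk, hc⟩ := Nat.find_spec hex
  refine ⟨k, hmk, ?_, hc⟩
  by_contra hlt
  obtain ⟨k', hk', hk'', hc'⟩ := hc.shorten hn (by omega) hind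
  have := Nat.find_min hex (m := k') hk'
  exact this ⟨by omega, hc'⟩

end Vale.Agent.P048
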